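import Vale.Agent.P200F.FDef

namespace Vale.Agent.P200F

open nonZeroDivisors Module

universe u

variable {a : ℕ}

abbrev XX (a : ℕ) := ℕ × Option (ZMod a)

/-- rotation of the copies -/
def rot (m : ℕ → ℕ) : XX a ≃ XX a where
  toFun x := (x.1, x.2.map (· + (m x.1 : ZMod a)))
  invFun x := (x.1, x.2.map (· - (m x.1 : ZMod a)))
  left_inv := by rintro ⟨c, _ | i⟩ <;> simp
  right_inv := by rintro ⟨c, _ | i⟩ <;> simp

/-- exponents of the monomials -/
structure GG (a : ℕ) where
  v : XX a →₀ ℕ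

def GG.th (g : GG a) : ℕ → ℕ := fun c => g.v (c, none)

noncomputable instance : Mul (GG a) := ⟨fun g h => ⟨g.v + Finsupp.equivMapDomain (rot g.th) h.v⟩⟩

noncomputable instance : One (GG a) := ⟨⟨0⟩⟩

lemma mul_v (g h : GG a) : (g * h).v = g.v + Finsupp.equivMapDomain (rot g.th) h.v := rfl

lemma mul_none (g h : GG a) (c : ℕ) : (g * h).v (c, none) = g.v (c, none) + h.v (c, none) := rfl

lemma mul_some (g h : GG a) (c : ℕ) (i : ZMod a) :
    (g * h).v (c, some i) = g.v (c, some i) + h.v (c, some (i - g.v (c, none))) := rfl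

lemma one_v (x : XX a) : (1 : GG a).v x = 0 := rfl

lemma GG.inj {g h : GG a} (e : g.v = h.v) : g = h := by
  cases g
  cases h
  congr

lemma GG.eq {g h : GG a} (h1 : ∀ c, g.v (c, none) = h.v (c, none))
    (h2 : ∀ c i, g.v (c, some i) = h.v (c, some i)) : g = h := by
  refine GG.inj (Finsupp.ext ?_)
  rintro ⟨c, _ | i⟩
  exacts [h1 c, h2 c i]

noncomputable instance : Monoid (GG a) where
  mul_assoc g h l := GG.eq (fun c => by simp only [mul_none, add_assoc]) fun c i => by
    simp only [mul_none, mul_some, add_assoc, Nat.cast_add, sub_sub]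
  one_mul g := GG.eq (fun c => by simp [mul_none, one_v]) fun c i => by simp [mul_some, one_v]
  mul_one g := GG.eq (fun c => by simp [mul_none, one_v]) fun c i => by simp [mul_some, one_v]

instance : UniqueProds (GG a) where
  uniqueMul_of_nonempty := by
    classical
    intro A B hA hB
    obtain ⟨m, hm, l, hl, h1⟩ := UniqueSums.uniqueAdd_of_nonempty (hA.image GG.th) (hB.image GG.th)
    obtain ⟨g0, hg0, e0⟩ := Finset.mem_image.1 hm
    obtain ⟨g1, hg1, e1⟩ := Finset.mem_image.1 hl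
    obtain ⟨x, hx, y, hy, h2⟩ := UniqueSums.uniqueAdd_of_nonempty
      (A := (A.filter fun g => g.th = m).image GG.v)
      (B := (B.filter fun g => g.th = l).image fun g => Finsupp.equivMapDomain (rot m) g.v)
      (Finset.Nonempty.image ⟨g0, Finset.mem_filter.2 ⟨hg0, e0⟩⟩ _)
      (Finset.Nonempty.image ⟨g1, Finset.mem_filter.2 ⟨hg1, e1⟩⟩ _)
    obtain ⟨u, hu, rfl⟩ := Finset.mem_image.1 hx
    obtain ⟨w, hw, rfl⟩ := Finset.mem_image.1 hy
    rw [Finset.mem_filter] at hu hw
    refine ⟨u, hu.1, w, hw.1, fun p q hp hq e => ?_⟩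
    have e2 : p.th + q.th = m + l := by
      rw [← hu.2, ← hw.2]
      exact congrArg GG.th e
    obtain ⟨f1, f2⟩ := h1 (Finset.mem_image_of_mem _ hp) (Finset.mem_image_of_mem _ hq) e2
    have e3 := congrArg GG.v e
    rw [mul_v, mul_v, f1, hu.2] at e3
    obtain ⟨f3, f4⟩ := h2 (Finset.mem_image_of_mem _ (Finset.mem_filter.2 ⟨hp, f1⟩))
      (Finset.mem_image_of_mem _ (Finset.mem_filter.2 ⟨hq, f2⟩)) e3
    exact ⟨GG.inj f3, GG.inj ((Finsupp.domCongr (rot m)).injective f4)⟩

section
variable [NeZero a]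

/-- boxes of exponents -/
noncomputable def box (a : ℕ) [NeZero a] (C N : ℕ) : Finset (GG a) :=
  ((Finset.range C ×ˢ (Finset.univ : Finset (Option (ZMod a)))).finsupp
    fun _ => Finset.range (N + 1)).map ⟨GG.mk, fun _ _ h => congrArg GG.v h⟩

lemma mem_box {C N : ℕ} {g : GG a} :
    g ∈ box a C N ↔ ∀ x, g.v x ≤ N ∧ (C ≤ x.1 → g.v x = 0) := by
  have : g ∈ box a C N ↔ g.v ∈ (Finset.range C ×ˢ (Finset.univ : Finset (Option (ZMod a)))).finsupp
      fun _ => Finset.range (N + 1) := Finset.mem_map' _ (a := g.v)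
  rw [this, Finset.mem_finsupp_iff]
  constructor
  · rintro ⟨h1, h2⟩ x
    by_cases hx : g.v x = 0
    · simp [hx]
    · have h3 := h1 (Finsupp.mem_support_iff.2 hx)
      have h4 := h2 x h3
      simp only [Finset.mem_product, Finset.mem_range] at h3 h4
      omega
  · intro h
    refine ⟨fun x hx => ?_, fun x _ => Finset.mem_range.2 (Nat.lt_succ_of_le (h x).1)⟩
    have := mt (h x).2 (Finsupp.mem_support_iff.1 hx)
    simp only [Finset.mem_product, Finset.mem_range, Finset.mem_univ, and_true]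
    omega

lemma card_box (C : ℕ) : ∃ e, ∀ N, (box a C N).card = (N + 1) ^ e :=
  ⟨_, fun N => by rw [box, Finset.card_map, Finset.card_finsupp, Finset.prod_const,
    Finset.card_range]⟩

lemma box_mul {C N d : ℕ} {g h : GG a} (hg : g ∈ box a C N) (hh : h ∈ box a C d) :
    g * h ∈ box a C (N + d) := by
  rw [mem_box] at *
  rintro ⟨c, _ | i⟩
  · rw [mul_none]
    exact ⟨Nat.add_le_add (hg _).1 (hh _).1, fun h => by rw [(hg _).2 h, (hh _).2 h]⟩
  · rw [mul_some]
    exact ⟨Nat.add_le_add (hg _).1 (hh _).1, fun h =>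
      Nat.add_eq_zero_iff.2 ⟨(hg _).2 h, (hh _).2 h⟩⟩

lemma exists_box (T : Finset (GG a)) : ∃ C d, T ⊆ box a C d := by
  refine ⟨T.sup (fun g => g.v.support.sup Prod.fst) + 1, T.sup fun g => g.v.support.sup g.v,
    fun g hg => mem_box.2 fun x => ?_⟩
  by_cases hx : g.v x = 0
  · simp [hx]
  have h0 := Finsupp.mem_support_iff.2 hx
  have h1 := (Finset.le_sup (f := g.v) h0).trans
    (Finset.le_sup (f := fun g : GG a => g.v.support.sup g.v) hg)
  have h2 := (Finset.le_sup (f := Prod.fst) h0).trans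
    (Finset.le_sup (f := fun g : GG a => g.v.support.sup Prod.fst) hg)
  exact ⟨h1, fun h => by omega⟩

lemma growth (e d : ℕ) : ∃ N : ℕ, (N + d + 1) ^ e < (N + 1) ^ e + (N + 1) ^ e := by
  have h := ((((tendsto_one_div_add_atTop_nhds_zero_nat (𝕜 := ℝ)).const_mul (d : ℝ)).const_add
    1).pow e).eventually_lt_const (show (1 + (d : ℝ) * 0) ^ e < 2 by simp)
  obtain ⟨N, hN⟩ := h.exists
  refine ⟨N, ?_⟩
  have h0 : (0 : ℝ) < N + 1 := by positivity
  have h1 : (1 + d * (1 / ((N : ℝ) + 1))) = (N + d + 1) / (N + 1) := by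
    field_simp
    ring
  rw [h1, div_pow, div_lt_iff₀ (by positivity), two_mul] at hN
  exact_mod_cast hN

lemma folner (T : Finset (GG a)) : ∃ F F' : Finset (GG a), (∀ p ∈ F, ∀ q ∈ T, p * q ∈ F') ∧
    F'.card < F.card + F.card := by
  obtain ⟨C, d, hT⟩ := exists_box T
  obtain ⟨e, he⟩ := card_box (a := a) C
  obtain ⟨N, hN⟩ := growth e d
  exact ⟨box a C N, box a C (N + d), fun p hp q hq => box_mul hp (hT hq), by rwa [he, he]⟩

end

lemma big_ore {D G : Type*} [DivisionRing D] [Monoid G] [UniqueProds G]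
    (hF : ∀ T : Finset G, ∃ F F' : Finset G, (∀ p ∈ F, ∀ q ∈ T, p * q ∈ F') ∧
      F'.card < F.card + F.card) (r s : MonoidAlgebra D G) (hs : s ≠ 0) :
    ∃ r' s' : MonoidAlgebra D G, s' ≠ 0 ∧ s' * r = r' * s := by
  classical
  obtain ⟨F, F', hT, hN⟩ := hF (r.coeff.support ∪ s.coeff.support)
  let U : Finset G → Submodule D (MonoidAlgebra D G) := fun F =>
    MonoidAlgebra.supported D D (F : Set G)
  have hm : ∀ (z : MonoidAlgebra D G), z.coeff.support ⊆ r.coeff.support ∪ s.coeff.support →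
      ∀ x ∈ U F, x * z ∈ U F' := fun z hz x hx g hg => by
    obtain ⟨p, hp, q, hq, rfl⟩ :=
      Finset.mem_mul.1 (MonoidAlgebra.support_coeff_mul_subset x z hg)
    exact hT p (hx hp) q (hz hq)
  let R : MonoidAlgebra D G → MonoidAlgebra D G →ₗ[D] MonoidAlgebra D G := fun z =>
    { toFun := fun x => x * z
      map_add' := fun x y => add_mul x y z
      map_smul' := fun c x => smul_mul_assoc c x z }
  let T : (U F × U F) →ₗ[D] U F' :=
    LinearMap.codRestrict _ (R r ∘ₗ (U F).subtype ∘ₗ LinearMap.fst _ _ _ -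
      R s ∘ₗ (U F).subtype ∘ₗ LinearMap.snd _ _ _)
      fun x => sub_mem (hm r Finset.subset_union_left _ x.1.2)
        (hm s Finset.subset_union_right _ x.2.2)
  have hr : ∀ m, finrank D (U m) = m.card := fun m => by
    rw [(MonoidAlgebra.supportedEquivFinsupp (m : Set G)).finrank_eq]
    simp
  have : ∀ m, Module.Finite D (U m) := fun m =>
    Module.Finite.equiv (MonoidAlgebra.supportedEquivFinsupp (m : Set G)).symm
  have hk : LinearMap.ker T ≠ ⊥ := LinearMap.ker_ne_bot_of_finrank_lt (by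
    rw [Module.finrank_prod, hr, hr]; exact hN)
  obtain ⟨x, hx, hx0⟩ := Submodule.exists_mem_ne_zero_of_ne_bot hk
  have h1 : x.1.1 * r = x.2.1 * s :=
    sub_eq_zero.mp (congrArg Subtype.val (LinearMap.mem_ker.mp hx))
  refine ⟨x.2, x.1, fun h => hx0 ?_, h1⟩
  rw [h, zero_mul] at h1
  exact Prod.ext (Subtype.ext h) (Subtype.ext ((mul_eq_zero.1 h1.symm).resolve_right hs))

theorem ore_frac (B : Type u) [Ring B] [Nontrivial B] [NoZeroDivisors B]
    (h : ∀ r s : B, s ≠ 0 → ∃ r' s' : B, s' ≠ 0 ∧ s' * r = r' * s) :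
    ∃ (k : Type u) (_ : DivisionRing k) (φ : B →+* k), Function.Injective φ ∧
      ∀ x : k, ∃ r s : B, x = (φ s)⁻¹ * φ r := by
  obtain ⟨inst⟩ : Nonempty (OreLocalization.OreSet B⁰) := by
    rw [OreLocalization.nonempty_oreSet_iff_of_noZeroDivisors]
    intro r s
    obtain ⟨r', s', h2, h3⟩ := h r s (nonZeroDivisors.ne_zero s.2)
    exact ⟨r', ⟨s', mem_nonZeroDivisors_of_ne_zero h2⟩, h3⟩
  have hi : Function.Injective (OreLocalization.numeratorRingHom : B →+* OreLocalization B⁰ B) :=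
    OreLocalization.numeratorHom_inj fun _ h => h.1
  refine ⟨OreLocalization B⁰ B, inferInstance, OreLocalization.numeratorRingHom, hi, fun x => ?_⟩
  induction x using OreLocalization.ind with | _ r s
  refine ⟨r, s, ?_⟩
  rw [eq_inv_mul_iff_mul_eq₀ ((map_ne_zero_iff _ hi).2 (nonZeroDivisors.ne_zero s.2))]
  exact OreLocalization.mul_cancel (t := 1)

/-- generators -/
noncomputable def gen (x : XX a) : GG a := ⟨Finsupp.single x 1⟩

lemma gen_comm {c : ℕ} (o : Option (ZMod a)) {g : GG a} (hg : ∀ o', g.v (c, o') = 0) :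
    gen (c, o) * g = g * gen (c, o) := by
  refine GG.eq (fun c' => by rw [mul_none, mul_none, add_comm]) fun c' i => ?_
  rw [mul_some, mul_some]
  by_cases h : c' = c
  · subst h
    simp [hg]
  · have : ∀ o', (gen (c, o)).v (c', o') = 0 := fun o' =>
      Finsupp.single_eq_of_ne fun e => h (congrArg Prod.fst e)
    simp [this]

lemma gen_yy (c : ℕ) (i j : ZMod a) :
    gen (c, some i) * gen (c, some j) = gen (c, some j) * gen (c, some i) := by
  refine GG.eq (fun c' => by rw [mul_none, mul_none, add_comm]) fun c' l => ?_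
  rw [mul_some, mul_some, add_comm]
  simp [gen]

lemma gen_ty (c : ℕ) (i : ZMod a) :
    gen (c, none) * gen (c, some i) = gen (c, some (i + 1)) * gen (c, none) := by
  refine GG.eq (fun c' => by simp [mul_none, gen]) fun c' l => ?_
  rw [mul_some, mul_some]
  by_cases h : c = c'
  · subst h
    simp [gen, Finsupp.single_apply, eq_sub_iff_add_eq]
  · simp [gen, Finsupp.single_apply, h]

theorem big (K D : Type u) [Field K] [DivisionRing D] [Algebra K D] (a : ℕ) [NeZero a] :
    ∃ (k : Type u) (_ : DivisionRing k) (_ : Algebra K k) (_ : D →ₐ[K] k), Fresh k a := by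
  classical
  obtain ⟨k, i1, φ, hφ, hfr⟩ := ore_frac (MonoidAlgebra D (GG a)) (big_ore folner)
  have cm : ∀ (z r s : MonoidAlgebra D (GG a)), Commute z r → Commute z s →
      Commute (φ z) ((φ s)⁻¹ * φ r) := fun z r s h1 h2 =>
    (h2.map φ).inv_right₀.mul_right (h1.map φ)
  letI alg : Algebra K k := (φ.comp (algebraMap K (MonoidAlgebra D (GG a)))).toAlgebra'
    fun c x => by
      obtain ⟨r, s, rfl⟩ := hfr x
      exact cm _ r s (Algebra.commutes c r) (Algebra.commutes c s)
  refine ⟨k, i1, alg, ⟨φ.comp MonoidAlgebra.singleOneRingHom, fun c => rfl⟩, fun S => ?_⟩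
  have hfr' := hfr
  choose r s hrs using hfr'
  obtain ⟨C, d, hT⟩ := exists_box (S.biUnion fun x => (r x).coeff.support ∪ (s x).coeff.support)
  let of : GG a →* MonoidAlgebra D (GG a) := MonoidAlgebra.of D (GG a)
  have c1 : ∀ o (z : MonoidAlgebra D (GG a)), z.coeff.support ⊆ box a C d →
      Commute (of (gen (C, o))) z := fun o z hz => by
    rw [← MonoidAlgebra.sum_coeff_single z, Finsupp.sum]
    refine Commute.sum_right _ _ _ fun g hg => ?_
    have := gen_comm o fun o' => (mem_box.1 (hz hg) (C, o')).2 le_rfl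
    simp only [of, Commute, SemiconjBy, MonoidAlgebra.of_apply, MonoidAlgebra.single_mul_single,
      this, one_mul, mul_one]
  have c2 : ∀ o, ∀ x ∈ S, Commute (φ (of (gen (C, o)))) x := fun o x hx => by
    have h := (Finset.subset_biUnion_of_mem
      (fun x => (r x).coeff.support ∪ (s x).coeff.support) hx).trans hT
    rw [hrs x]
    exact cm _ _ _ (c1 o _ (Finset.subset_union_left.trans h))
      (c1 o _ (Finset.subset_union_right.trans h))
  refine ⟨φ (of (gen (C, none))), fun i => φ (of (gen (C, some i))), ?_, fun i j h => ?_,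
    fun i j => ?_, fun i => ?_, fun x hx => ⟨c2 _ x hx, fun i => c2 _ x hx⟩⟩
  · refine (map_ne_zero_iff _ hφ).2 ?_
    simp [of]
  · have h1 := congrArg GG.v (MonoidAlgebra.of_injective (hφ h))
    simpa [gen, Finsupp.single_left_inj] using h1
  · simp only [Commute, SemiconjBy, ← map_mul, gen_yy C i j]
  · simp only [← map_mul, gen_ty]

end Vale.Agent.P200F
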