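import Vale.Agent.P200G.FinG

/-! Twisted Pascal triangles commuting with a given finite set. -/

namespace Vale.Agent.P200F

/-- for each finite set a twisted Pascal triangle commuting with it -/
def GoodF (k : Type*) [DivisionRing k] (a : ℕ) : Prop :=
  ∀ S : Finset k, ∃ (t : ℕ → k) (Q : ℕ → ℕ → k), (∀ s, Q s 0 = 1) ∧
    (∀ r, Q 0 (r + 1) = Q 0 r * t 0) ∧
    (∀ s r, Q (s + 1) (r + 1) = Q s (r + 1) + Q (s + 1) r * t (s + 1)) ∧
    (∀ s r, 0 < s → 0 < r → s + r = a → Q s r = 0) ∧ (∀ s, s + 1 < a → Q s 1 ≠ 0) ∧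
    (∀ s, ∀ x ∈ S, Commute (t s) x) ∧ ∀ s, ∀ x ∈ S, Commute (Q s 1) x

/-- cyclically permuted commuting elements that commute with a given finite set -/
def Fresh (k : Type*) [DivisionRing k] (a : ℕ) : Prop :=
  ∀ S : Finset k, ∃ (θ : k) (y : ZMod a → k), θ ≠ 0 ∧ Function.Injective y ∧
    (∀ i j, Commute (y i) (y j)) ∧ (∀ i, θ * y i = y (i + 1) * θ) ∧
    ∀ x ∈ S, Commute θ x ∧ ∀ i, Commute (y i) x

end Vale.Agent.P200F
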