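import Vale.Agent.P200F.FDef
import Vale.Agent.P200D.Good

namespace Vale.Agent.P200F

open Vale.Agent.P200D

theorem goodS_skew {L D : Type*} [Field L] [DivisionRing D] (σ : L →+* L) (ι : L →+* D) {θ : D}
    (h0 : θ ≠ 0) (hθ : ∀ x, θ * ι x = ι (σ x) * θ) {a : ℕ} (y : ℕ → L)
    (hy : ∀ i, σ (y i) = y (i + 1)) (ha : y a = y 0)
    (hne : ∀ i j, i < j → j < i + a → y i ≠ y j) :
    ∃ (t : ℕ → D) (Q : ℕ → ℕ → D), (∀ s, Q s 0 = 1) ∧ (∀ r, Q 0 (r + 1) = Q 0 r * t 0) ∧
      (∀ s r, Q (s + 1) (r + 1) = Q s (r + 1) + Q (s + 1) r * t (s + 1)) ∧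
      (∀ s r, 0 < s → 0 < r → s + r = a → Q s r = 0) ∧ (∀ s, s + 1 < a → Q s 1 ≠ 0) ∧
      ∀ x, Commute θ x → (∀ z, Commute (ι z) x) →
        (∀ s, Commute (t s) x) ∧ ∀ s r, Commute (Q s r) x := by
  obtain ⟨N, hN⟩ : ∃ N : ℕ → ℕ → L,
      N = fun s r => ∏ u ∈ Finset.range s, (y 0 - y (r + 1 + u)) := ⟨_, rfl⟩
  obtain ⟨E, hE⟩ : ∃ E : ℕ → ℕ → L,
      E = fun s r => ∏ u ∈ Finset.range s, (y r - y (r + 1 + u)) := ⟨_, rfl⟩
  have hσ : ∀ s r, σ (E s r) = E s (r + 1) := fun s r => by
    simp only [hE, map_prod, map_sub, hy]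
    exact Finset.prod_congr rfl fun u _ => by rw [show r + 1 + u + 1 = r + 1 + 1 + u by omega]
  have hE0 : ∀ s r, s < a → E s r ≠ 0 := fun s r hs => by
    rw [hE]
    refine Finset.prod_ne_zero_iff.mpr fun u hu => sub_ne_zero.mpr (hne _ _ (by omega) ?_)
    have := Finset.mem_range.mp hu
    omega
  have hp : ∀ s r q, θ ^ r * ι (E s q / E s (q + 1)) = ι (E s (q + r) / E s (q + r + 1)) * θ ^ r := by
    intro s r
    induction r with
    | zero => simp
    | succ r ih =>
      intro q
      rw [pow_succ, mul_assoc, hθ, map_div₀, hσ, hσ, ← mul_assoc, ih, mul_assoc,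
        show q + 1 + r = q + (r + 1) by omega]
  obtain ⟨t, ht⟩ : ∃ t : ℕ → D, t = fun s => ι (E s 0 / E s (0 + 1)) * θ := ⟨_, rfl⟩
  have q1 : ∀ s, Qc t s 0 = 1 := fun s => by cases s <;> rfl
  have q2 : ∀ r, Qc t 0 (r + 1) = Qc t 0 r * t 0 := fun _ => rfl
  have q3 : ∀ s r, Qc t (s + 1) (r + 1) = Qc t s (r + 1) + Qc t (s + 1) r * t (s + 1) :=
    fun _ _ => rfl
  have key : ∀ s r, s < a → Qc t s r = ι (N s r / E s r) * θ ^ r := by
    intro s
    induction s with
    | zero =>
      intro r _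
      induction r with
      | zero => simp [q1, hN, hE]
      | succ r ih => rw [q2, ih]; simp [ht, hN, hE, pow_succ]
    | succ s ih =>
      intro r hs
      induction r with
      | zero =>
        have : N (s + 1) 0 = E (s + 1) 0 := by rw [hN, hE]
        rw [q1, this, div_self (hE0 _ _ hs)]
        simp
      | succ r ih2 =>
        rw [q3, ih _ (by omega), ih2, ht]
        simp only
        rw [mul_assoc, ← mul_assoc (θ ^ r), hp, mul_assoc, ← pow_succ, ← mul_assoc, ← map_mul,
          ← add_mul, ← map_add, zero_add]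
        congr 2
        have e1 : N (s + 1) (r + 1) = N s (r + 1) * (y 0 - y (r + 1 + 1 + s)) := by
          rw [hN]; exact Finset.prod_range_succ _ _
        have e2 : E (s + 1) (r + 1) = E s (r + 1) * (y (r + 1) - y (r + 1 + 1 + s)) := by
          rw [hE]; exact Finset.prod_range_succ _ _
        have e3 : N (s + 1) r = N s (r + 1) * (y 0 - y (r + 1)) := by
          rw [hN]
          simp only
          rw [Finset.prod_range_succ']
          congr 1
          exact Finset.prod_congr rfl fun u _ => by rw [show r + 1 + (u + 1) = r + 1 + 1 + u by omega]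
        have n1 := hE0 (s + 1) r hs
        have n2 := hE0 s (r + 1) (by omega)
        have n3 : y (r + 1) - y (r + 1 + 1 + s) ≠ 0 := sub_ne_zero.mpr (hne _ _ (by omega) (by omega))
        rw [e1, e2, e3]
        field_simp
        ring
  refine ⟨t, Qc t, q1, q2, q3, fun s r hs hr h => ?_, fun s h => ?_, fun x h1 h2 => ?_⟩
  · have : N s r = 0 := by
      rw [hN]
      refine Finset.prod_eq_zero (Finset.mem_range.mpr (show s - 1 < s by omega)) ?_
      rw [show r + 1 + (s - 1) = a by omega, ha, sub_self]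
    rw [key s r (by omega), this]
    simp
  · rw [key s 1 (by omega)]
    refine mul_ne_zero ((map_ne_zero ι).mpr (div_ne_zero ?_ (hE0 _ _ (by omega))))
      (pow_ne_zero _ h0)
    rw [hN]
    refine Finset.prod_ne_zero_iff.mpr fun u hu => sub_ne_zero.mpr (hne _ _ (by omega) ?_)
    have := Finset.mem_range.mp hu
    omega
  · have c : ∀ s, Commute (t s) x := fun s => by
      rw [ht]
      exact (h2 _).mul_left h1
    refine ⟨c, fun s => ?_⟩
    induction s with
    | zero =>
      intro r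
      induction r with
      | zero => rw [q1]; exact Commute.one_left x
      | succ r ih => rw [q2]; exact ih.mul_left (c 0)
    | succ s ih =>
      intro r
      induction r with
      | zero => rw [q1]; exact Commute.one_left x
      | succ r ih2 => rw [q3]; exact (ih _).add_left (ih2.mul_left (c _))

theorem goodF_of {k : Type*} [DivisionRing k] {a : ℕ} (h : Fresh k a) : GoodF k a := by
  intro S
  obtain ⟨θ, y, h0, hi, hc, hθ, hS⟩ := h S
  let L : Subfield k :=
    { carrier := {x | ∀ u, (∀ i, Commute u (y i)) → Commute u x}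
      mul_mem' := fun ha hb u hu => (ha u hu).mul_right (hb u hu)
      one_mem' := fun u _ => Commute.one_right u
      add_mem' := fun ha hb u hu => (ha u hu).add_right (hb u hu)
      zero_mem' := fun u _ => Commute.zero_right u
      neg_mem' := fun ha u hu => (ha u hu).neg_right
      inv_mem' := fun x ha u hu => (ha u hu).inv_right₀ }
  letI : Field L := { (inferInstance : DivisionRing L) with
    mul_comm := fun a b => Subtype.ext (b.2 a.1 fun i => (a.2 (y i) (hc i)).symm).eq }
  have e1 : ∀ i, y i = θ⁻¹ * (y (i + 1) * θ) := fun i => by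
    rw [← hθ, inv_mul_cancel_left₀ h0]
  have m : ∀ x : L, θ * x.1 * θ⁻¹ ∈ L := fun x u hu => by
    have c : Commute (θ⁻¹ * (u * θ)) x.1 := x.2 _ fun i => by
      rw [e1 i]
      show _ * _ = _ * _
      simp only [mul_assoc, mul_inv_cancel_left₀ h0]
      rw [← mul_assoc u, (hu (i + 1)).eq, mul_assoc]
    have c' := congrArg (fun z => θ * z * θ⁻¹) c.eq
    simp only [mul_assoc, mul_inv_cancel_left₀ h0, mul_inv_cancel₀ h0, mul_one] at c'
    show _ * _ = _ * _
    simpa only [mul_assoc] using c'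
  let σ : L →+* L :=
    { toFun := fun x => ⟨_, m x⟩
      map_one' := Subtype.ext (by simp [h0])
      map_mul' := fun a b => Subtype.ext (by
        show θ * (a.1 * b.1) * θ⁻¹ = θ * a.1 * θ⁻¹ * (θ * b.1 * θ⁻¹)
        simp only [mul_assoc, inv_mul_cancel_left₀ h0])
      map_zero' := Subtype.ext (by simp)
      map_add' := fun a b => Subtype.ext (by
        show θ * (a.1 + b.1) * θ⁻¹ = θ * a.1 * θ⁻¹ + θ * b.1 * θ⁻¹
        rw [mul_add, add_mul]) }
  obtain ⟨t, Q, q1, q2, q3, q4, q5, q6⟩ := goodS_skew σ L.subtype h0 (a := a)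
    (fun x => (inv_mul_cancel_right₀ h0 (θ * x.1)).symm)
    (fun i => ⟨y (i : ZMod a), fun u hu => hu _⟩)
    (fun i => Subtype.ext (by
      show θ * y (i : ZMod a) * θ⁻¹ = y ((i + 1 : ℕ) : ZMod a)
      rw [hθ, mul_inv_cancel_right₀ h0, Nat.cast_succ]))
    (Subtype.ext (by simp)) (fun i j hij hj e => by
      have h2 : (i : ZMod a) = j := hi (congrArg Subtype.val e)
      have h3 := (Nat.modEq_iff_dvd' hij.le).mp ((ZMod.natCast_eq_natCast_iff _ _ _).mp h2)
      exact absurd (Nat.le_of_dvd (by omega) h3) (by omega))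
  have q7 := fun x hx => q6 x (hS x hx).1 fun z => (z.2 x fun i => ((hS x hx).2 i).symm).symm
  exact ⟨t, Q, q1, q2, q3, q4, q5, fun s x hx => (q7 x hx).1 s, fun s x hx => (q7 x hx).2 s 1⟩

end Vale.Agent.P200F
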