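import Vale.Agent.P200F.MF
import Vale.Agent.P200F.Big
import Vale.Agent.P200F.GoodS

namespace Vale.Agent.P200F

open Module MvPolynomial P200 P200L P200D P200G

universe u

open TensorProduct P200M in
theorem topF {K : Type u} [Field K] {m c : ℕ} (hc : c + 2 ≤ m + 2) (a : Fin (c + 2) → ℕ)
    (h2 : ∀ i, 2 ≤ a i) (hmono : Monotone a)
    (f : Fin (c + 2) → MvPolynomial (Fin (m + 2)) K) (hf : ∀ i, (f i).IsHomogeneous (a i))
    (hreg : IsReg f) (I : Ideal (MvPolynomial (Fin (m + 2)) K)) (hI : ∀ i, f i ∈ I) :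
    ∃ (D : Type u) (_ : DivisionRing D) (_ : Algebra K D) (_ : Algebra (AlgebraicClosure K) D)
      (W : ℕ → Submodule D (VV D (m + 2))), GoodF D (a (Fin.last _)) ∧ HW W ∧ UpW W ∧ Pow (c + 2) (a (Fin.last _)) W ∧
      Two (a 0) (a 1) W ∧ (∀ d, finrank D (W d) = finrank K (ipart I d)) ∧
      ∀ p j, tW W p j = tt (mX K (m + 2)) (homogeneousSubmodule (Fin (m + 2)) K) (ipart I) p j := by
  obtain ⟨b, hb⟩ : ∃ b, a (Fin.last _) = b + 1 := ⟨a (Fin.last _) - 1, by
    have := h2 (Fin.last _)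
    omega⟩
  have ha : ∀ j, a j ≤ b + 1 := fun j => hb ▸ hmono (Fin.le_last j)
  let k := AlgebraicClosure K
  have h1 := hreg.baseChange (k := k)
  obtain ⟨lam, hlam, h3⟩ := P200.elim hc h1
  obtain ⟨ζ, hζ⟩ := P200E.exists_QR (k := k) (a := b + 1) (by omega)
  have h4 : ∀ j, (P200.linSub lam (map (algebraMap K k) (f j))).IsHomogeneous (a j) := by
    intro j
    have := ((hf j).map (algebraMap K k)).aeval (fun j => ∑ l, C (lam j l) * X l)
      (n := 1) fun i => IsHomogeneous.sum _ _ _ fun l _ => isHomogeneous_C_mul_X _ _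
    rw [one_mul] at this
    exact this
  obtain ⟨u, hu, h5⟩ := raise a _ h4 (fun j => by have := h2 j; omega) ha h3
  obtain ⟨k', D0, i1, j2, i3, i4, i5, j6, i7, γ0, τ0, w0, hcomm0, r0, hw0⟩ :=
    P200E.towerA (hb ▸ h2 _) hζ _ (fun j => by
      have := (h4 j).mul (hu j)
      rwa [Nat.add_sub_cancel' (ha j)] at this) h5 _ le_rfl
  obtain ⟨D, i2, i6, φ, hφ⟩ := big k D0 (b + 1)
  let γ := fun i j => φ (γ0 i j)
  let τ := fun i j => φ (τ0 i j)
  let w := fun i j => φ (w0 i j)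
  have hcomm : ∀ i i', i ≠ i' → ∀ p l, Commute (γ i p) (γ i' l) := fun i i' h p l =>
    (hcomm0 i i' h p l).map φ
  have r1 : ∀ i, (∑ p, γ i p ⊗ₜ[k] (X p : MvPolynomial (Fin (c + 2)) k)) ^ (b + 1) =
      ∑ j, τ i j ⊗ₜ[k] (P200.linSub lam (map (algebraMap K k) (f j)) * u j) := fun i => by
    have := congrArg (Algebra.TensorProduct.map φ (AlgHom.id k (MvPolynomial (Fin (c + 2)) k)))
      (r0 i)
    simpa only [map_pow, map_sum, Algebra.TensorProduct.map_tmul, AlgHom.coe_id, id] using this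
  have hw : ∀ i i', ∑ p, γ i p * w p i' = if i = i' then 1 else 0 := fun i i' => by
    have := congrArg φ (hw0 i i')
    rw [map_sum, apply_ite φ, map_one, map_zero] at this
    simpa only [map_mul] using this
  let alg : Algebra K D := ((algebraMap k D).comp (algebraMap K k)).toAlgebra'
    fun r d => Algebra.commutes _ d
  have : IsScalarTower K k D := IsScalarTower.of_algebraMap_eq fun _ => rfl
  obtain ⟨σ, hσ⟩ := exch τ (frames_indep (Nat.succ_pos b) _ γ τ w hcomm r1 hw)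
  rw [hb]
  obtain ⟨W, hW⟩ := TopG_core hc a ha f hf I hI lam hlam (P200.linSub lam)
    (fun p => by simp [P200.linSub]) u hu h5 (fun i => γ (σ i)) (fun i => τ (σ i))
    (fun l i => w l (σ i)) (fun i j hij => hcomm _ _ (σ.injective.ne hij)) (fun i => r1 _)
    (fun i j => by rw [hw]; simp) hσ
  exact ⟨D, i2, alg, i6, W, goodF_of hφ, hW⟩

variable {K : Type u} [Field K] {n c : ℕ}

theorem tt_LF {m c : ℕ} (hc : c + 2 ≤ m + 2) (a : Fin (c + 2) → ℕ) (h2 : ∀ i, 2 ≤ a i)
    (hmono : Monotone a) (htop : ∀ i j : Fin (c + 2), 2 ≤ (i : ℕ) → 2 ≤ (j : ℕ) → a i = a j)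
    (f : Fin (c + 2) → MvPolynomial (Fin (m + 2)) K) (hf : ∀ i, (f i).IsHomogeneous (a i))
    (hreg : IsReg f) (I : Ideal (MvPolynomial (Fin (m + 2)) K)) (hI : ∀ i, f i ∈ I) {q : ℕ → ℕ}
    (hU : Up (LL hc a q)) (hcnt : ∀ d, cnt (LL hc a q) d = finrank K (ipart I d)) (p j : ℕ) :
    tt (mX K (m + 2)) (homogeneousSubmodule (Fin (m + 2)) K) (ipart I) p j ≤
      tt (mX K (m + 2)) (homogeneousSubmodule (Fin (m + 2)) K) (ipart (Ideal.span
        ((fun β => (monomial β 1 : MvPolynomial (Fin (m + 2)) K)) '' LL hc a q))) p j := by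
  obtain ⟨D, i1, i2, i3, W, w0, w1, w2, w3, w4, w5, w6⟩ := topF hc a h2 hmono f hf hreg I hI
  obtain ⟨b, hb1, hb2⟩ := Nat.exists_infinite_primes (j + a (Fin.last _) + 1)
  have hab : ∀ i, a i ≤ b := fun i => by
    have := hmono (Fin.le_last i)
    omega
  have hle : ∀ d, W d ≤ if d ≤ j then W d else Pd D (m + 2) d := fun d => by
    split_ifs
    · exact le_rfl
    · exact w1 d
  obtain ⟨L, l1, l2, -, l4⟩ := MF (k := D) K (c := c + 2) (a0 := a 0) (a1 := a 1)
    (A := a (Fin.last _)) (b := b)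
    (fun _ => w0) (goodF_of_C (goodC_of (AlgebraicClosure K) hb2.two_le (Or.inr hb2))) m
    (fun i => if h : (i : ℕ) < c + 2 then a ⟨i, h⟩ else b)
    (fun i i' h => by
      have h' : (i : ℕ) ≤ i' := h
      simp only
      split_ifs with h1 h2 h2
      · exact hmono h'
      · exact hab _
      · omega
      · exact le_rfl)
    (fun i => by
      split_ifs with h
      · have := h2 ⟨i, h⟩
        omega
      · omega)
    (by simp) (by simp)
    (fun i hi => by
      split_ifs with h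
      · exact htop _ _ hi (by simp; omega)
      · rfl)
    (fun d => if d ≤ j then W d else Pd D (m + 2) d)
    (fun d => by
      simp only
      split_ifs
      · exact w1 d
      · exact le_rfl)
    (fun d i w hw => by
      simp only at hw ⊢
      by_cases c1 : d + 1 ≤ j
      · rw [if_pos (by omega)] at hw
        rw [if_pos c1]
        exact w2 d i w hw
      · rw [if_neg c1]
        refine sh_Pd i d w ?_
        split_ifs at hw
        · exact w1 d hw
        · exact hw)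
    (fun d hd => by rw [if_neg (by omega)]) (w3.mono hle) (w4.mono hle)
  beta_reduce at l2
  rw [← w6, tt_mon D hU]
  refine (tW_mono (hle _)).trans ((l4 p j).trans (tE_mono fun β hβ hd => ?_))
  have hlex : IsLex (fun i : Fin (m + 2) => if h : (i : ℕ) < c + 2 then a ⟨i, h⟩ else b)
      {β | β ∈ LL hc a q ∨ j < β.degree} := by
    constructor
    · rintro β ⟨i, hi⟩
      simp only at hi
      split_ifs at hi with h
      · exact Or.inl (Or.inl ⟨⟨i, h⟩, hi⟩)
      · have := Finsupp.le_degree i β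
        right; omega
    · rintro β (hβ | hβ) hn γ hd hlt
      · refine Or.inl (LL_lex hc a q β hβ ?_ γ hd hlt)
        rintro ⟨i, hi⟩
        exact hn ⟨Fin.castLE hc i, by simpa using hi⟩
      · right; rw [hd]; exact hβ
  rcases lex_nest l1 hlex hβ (by
    rw [l2, if_pos (by omega), w5, ← hcnt]
    exact cnt_mono fun γ hγ _ => Or.inl hγ) with h | h
  · exact h
  · omega

theorem lpp_mainF (hc : c ≤ n) (a : Fin c → ℕ) (h2 : ∀ i, 2 ≤ a i) (hmono : Monotone a)
    (htop : ∀ i j : Fin c, 2 ≤ (i : ℕ) → 2 ≤ (j : ℕ) → a i = a j)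
    (f : Fin c → MvPolynomial (Fin n) K) (hf : ∀ i, (f i).IsHomogeneous (a i)) (hreg : IsReg f)
    (I : Ideal (MvPolynomial (Fin n) K)) (hI : ∀ i, f i ∈ I) :
    ∃ J : Ideal (MvPolynomial (Fin n) K), J.restrictScalars K = lpp I (pw K hc a) ∧
      ∀ p j, betti I p j ≤ betti J p j := by
  by_cases he : ∀ i i', a i = a i'
  · obtain ⟨J, j1, j2⟩ := lpp_main hc a h2 hmono htop f hf hreg I hI
    exact ⟨J, j1, j2 he⟩
  rcases c with _ | _ | c
  · exact absurd (fun i => i.elim0) he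
  · exact absurd (fun i i' => by rw [Fin.fin_one_eq_zero i, Fin.fin_one_eq_zero i']) he
  obtain ⟨m, rfl⟩ : ∃ m, n = m + 2 := ⟨n - 2, by omega⟩
  obtain ⟨E, h1, h3, h4⟩ := P200M.egh_two hc a h2 hmono htop f hf hreg I hI
  obtain ⟨hU, hcnt⟩ := LL_facts hc a h2 hmono I E h1 h3 h4 rfl
  exact ⟨_, lpp_eq hc a I hU, betti_le _ _ (fun d => by rw [finrank_mon hU, hcnt])
    (tt_LF hc a h2 hmono htop f hf hreg I hI hU hcnt)⟩

end Vale.Agent.P200F
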