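import Vale.Agent.P200F.FDef

namespace Vale.Agent.P200F

open Module P200 P200L P200D P200G

variable {n : ℕ} {k : Type*} [DivisionRing k]

theorem qopF (a : Fin (n + 1) → ℕ) (l : Fin n)
    (hl : a l.castSucc ≤ a (Fin.last n)) (hg : GoodF k (a (Fin.last n))) (S : Finset k) :
    ∃ Ψ M τ : VV k (n + 1) →ₗ[k] VV k (n + 1),
      (∀ v, M v = sh k (n + 1) (Fin.last n) v + sh k (n + 1) l.castSucc (τ v)) ∧
      (∀ v, (τ v).support ⊆ v.support) ∧
      (∀ (i : Fin n) v, τ (sh k (n + 1) i.castSucc v) = sh k (n + 1) i.castSucc (τ v)) ∧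
      (∀ v, Ψ (sh k (n + 1) (Fin.last n) v) = M (Ψ v)) ∧
      (∀ (i : Fin n) v, Ψ (sh k (n + 1) i.castSucc v) = sh k (n + 1) i.castSucc (Ψ v)) ∧
      (∀ d, ∀ v ∈ Pd k (n + 1) d, Ψ v ∈ Pd k (n + 1) d) ∧
      (∀ β γ, Ψ (Finsupp.single β 1) γ ≠ 0 → γ = β ∨ γ (Fin.last n) < β (Fin.last n)) ∧
      (∀ β, Ψ (Finsupp.single β 1) β = 1) ∧
      (∀ β γ, Out a β → Ψ (Finsupp.single β 1) γ ≠ 0 → Out a γ) ∧
      (∀ U : Submodule k (VV k (n + 1)), (∀ κ, ∀ w ∈ U, zf k n κ w ∈ U) → ∀ w ∈ U,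
        (∀ γ ∈ w.support, w γ ∈ S) → τ w ∈ U) ∧
      ∀ κ, κ + 1 < a (Fin.last n) → ∃ q : k, q ≠ 0 ∧ ∀ v : VV k n,
        (∀ γ ∈ v.support, v γ ∈ S) → layCo k n κ (Ψ (emb k n (κ + 1) v)) = q • sh k n l v := by
  classical
  obtain ⟨t, Q, q1, q2, q3, q4, q5, q6, q7⟩ := hg S
  set τ : ((Fin (n + 1) →₀ ℕ) →₀ k) →ₗ[k] ((Fin (n + 1) →₀ ℕ) →₀ k) :=
    Finsupp.linearCombination k fun β => t (β (Fin.last n)) • Finsupp.single β (1 : k) with hτ
  set Ψ : ((Fin (n + 1) →₀ ℕ) →₀ k) →ₗ[k] ((Fin (n + 1) →₀ ℕ) →₀ k) :=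
    Finsupp.linearCombination k fun β => ∑ p ∈ Finset.HasAntidiagonal.antidiagonal (β (Fin.last n)),
      Q p.1 p.2 • Finsupp.single (Qe l β p.1 p.2) (1 : k) with hΨ
  have τ1 : ∀ β, τ (Finsupp.single β 1) = t (β (Fin.last n)) • Finsupp.single β (1 : k) :=
    fun β => by rw [hτ, Finsupp.linearCombination_single, one_smul]
  have Ψ1 : ∀ β, Ψ (Finsupp.single β 1) = ∑ p ∈ Finset.HasAntidiagonal.antidiagonal (β (Fin.last n)),
      Q p.1 p.2 • Finsupp.single (Qe l β p.1 p.2) (1 : k) :=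
    fun β => by rw [hΨ, Finsupp.linearCombination_single, one_smul]
  have s1 : ∀ i β, sh k (n + 1) i (Finsupp.single β 1) =
      Finsupp.single (β + Finsupp.single i 1) (1 : k) := fun i β => Finsupp.mapDomain_single
  have ext : ∀ f g : ((Fin (n + 1) →₀ ℕ) →₀ k) →ₗ[k] ((Fin (n + 1) →₀ ℕ) →₀ k),
      (∀ β, f (Finsupp.single β 1) = g (Finsupp.single β 1)) → ∀ v, f v = g v :=
    fun f g h v => LinearMap.congr_fun (Finsupp.lhom_ext' fun β => LinearMap.ext_ring (h β)) v
  have key : ∀ β γ, Ψ (Finsupp.single β 1) γ ≠ 0 →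
      ∃ s r, s + r = β (Fin.last n) ∧ Q s r ≠ 0 ∧ γ = Qe l β s r := fun β γ h => by
    rw [Ψ1, Finsupp.finsetSum_apply] at h
    obtain ⟨p, hp, h2⟩ := Finset.exists_ne_zero_of_sum_ne_zero h
    rw [Finsupp.smul_apply, smul_eq_mul] at h2
    exact ⟨p.1, p.2, Finset.HasAntidiagonal.mem_antidiagonal.1 hp, left_ne_zero_of_mul h2,
      (Finsupp.single_apply_ne_zero.1 (right_ne_zero_of_mul h2)).1⟩
  have val : ∀ (β : Fin (n + 1) →₀ ℕ) s r, s + r = β (Fin.last n) →
      Ψ (Finsupp.single β 1) (Qe l β s r) = Q s r := fun β s r h => by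
    rw [Ψ1, Finsupp.finsetSum_apply, Finset.sum_eq_single (s, r)]
    · simp
    · intro p hp hne
      rw [Finsupp.smul_apply, Finsupp.single_eq_of_ne, smul_zero]
      intro e
      have e1 := congrArg (fun x => x (Fin.last n)) e
      simp only [Qe_last] at e1
      have := Finset.HasAntidiagonal.mem_antidiagonal.1 hp
      exact hne (Prod.ext e1.symm (by omega))
    · intro h'
      exact absurd (Finset.HasAntidiagonal.mem_antidiagonal.2 h) h'
  have self : ∀ β : Fin (n + 1) →₀ ℕ, Qe l β (β (Fin.last n)) 0 = β := fun β =>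
    Qe_ext (Qe_last _ _ _ _) fun i => by simp [Qe_cast]
  have τv : ∀ v γ, τ v γ = v γ * t (γ (Fin.last n)) := fun v γ => by
    induction v using Finsupp.induction_linear with
    | zero => simp
    | add x y hx hy => rw [map_add, Finsupp.add_apply, Finsupp.add_apply, hx, hy, add_mul]
    | single β c =>
      rw [hτ, Finsupp.linearCombination_single]
      by_cases e : β = γ
      · simp [e]
      · simp [Finsupp.single_eq_of_ne (Ne.symm e)]
  refine ⟨Ψ, sh k (n + 1) (Fin.last n) + sh k (n + 1) l.castSucc ∘ₗ τ, τ, fun v => rfl, fun v => ?_,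
    fun i => ext (τ ∘ₗ sh k (n + 1) i.castSucc) (sh k (n + 1) i.castSucc ∘ₗ τ) fun β => ?_,
    ext (Ψ ∘ₗ sh k (n + 1) (Fin.last n)) ((_ + _) ∘ₗ Ψ) fun β => ?_,
    fun i => ext (Ψ ∘ₗ sh k (n + 1) i.castSucc) (sh k (n + 1) i.castSucc ∘ₗ Ψ) fun β => ?_,
    fun d v hv => ?_, fun β γ h => ?_, fun β => ?_, fun β γ h h' => ?_, fun U hU w hw hS => ?_,
    fun κ hκ => ⟨Q κ 1, q5 κ hκ, fun v hS => ?_⟩⟩
  · have := τv v
    intro γ hγ
    rw [Finsupp.mem_support_iff] at hγ ⊢
    rw [this] at hγ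
    exact left_ne_zero_of_mul hγ
  · rw [LinearMap.comp_apply, LinearMap.comp_apply, s1, τ1, τ1, map_smul, s1, Finsupp.add_apply,
      Qe_s2, add_zero]
  · rw [LinearMap.comp_apply, LinearMap.comp_apply, s1, Ψ1, Ψ1, Finsupp.add_apply,
      Finsupp.single_eq_same, Qc_sum q1 q2 q3 fun s r => Finsupp.single
        (Qe l (β + Finsupp.single (Fin.last n) 1) s r) (1 : k), map_sum]
    refine Finset.sum_congr rfl fun p _ => ?_
    rw [map_smul, LinearMap.add_apply, LinearMap.comp_apply, s1, τ1, map_smul, s1, Qe_last]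
    congr 3
    · exact Qe_ext (by simp [Qe_last]) fun i => by simp [Qe_cast, Qe_s1]
    · congr 1
      refine Qe_ext (by simp [Qe_last, Qe_s2]) fun i => ?_
      simp only [Qe_cast, Finsupp.add_apply, Qe_s1]
      simp only [Finsupp.single_apply, Fin.castSucc_inj]
      split_ifs <;> omega
  · rw [LinearMap.comp_apply, LinearMap.comp_apply, s1, Ψ1, Ψ1, Finsupp.add_apply, Qe_s2, add_zero,
      map_sum]
    refine Finset.sum_congr rfl fun p _ => ?_
    rw [map_smul, s1]
    congr 2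
    refine Qe_ext (by simp [Qe_last, Qe_s2]) fun j => ?_
    simp only [Qe_cast, Finsupp.add_apply]
    omega
  · rw [← Finsupp.sum_single v, Finsupp.sum, map_sum]
    refine Submodule.sum_mem _ fun β hβ => ?_
    rw [← mul_one (v β), ← smul_eq_mul, ← Finsupp.smul_single, map_smul]
    refine Submodule.smul_mem _ _ fun γ hγ => ?_
    obtain ⟨s, r, e1, -, rfl⟩ := key β γ (Finsupp.mem_support_iff.1 hγ)
    rw [Finset.mem_coe, mem_expo, Qe_deg l β e1]
    exact mem_expo.1 (hv hβ)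
  · obtain ⟨s, r, e1, -, rfl⟩ := key β γ h
    rcases Nat.eq_zero_or_pos r with rfl | hr
    · left
      rw [show s = β (Fin.last n) from e1, self]
    · right
      rw [Qe_last]
      omega
  · have := val β (β (Fin.last n)) 0 rfl
    rwa [self, q1] at this
  · obtain ⟨s, r, e1, e2, rfl⟩ := key β γ h'
    obtain ⟨i, hi⟩ := h
    induction i using Fin.lastCases with
    | cast i => exact ⟨i.castSucc, by rw [Qe_cast]; omega⟩
    | last =>
      by_cases c1 : a (Fin.last n) ≤ s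
      · exact ⟨Fin.last n, by rwa [Qe_last]⟩
      by_cases c2 : a (Fin.last n) ≤ r
      · exact ⟨l.castSucc, by rw [Qe_cast, if_pos rfl]; omega⟩
      exact absurd (Qc_zero q3 q4 (β (Fin.last n) - a (Fin.last n)) s r (by omega) (by omega)
        (by omega)) e2
  · have e : τ w = ∑ κ ∈ w.support.image (fun β => β (Fin.last n)), t κ • zf k n κ w := by
      ext γ
      rw [τv, Finsupp.finsetSum_apply]
      simp only [Finsupp.smul_apply, zf_apply, smul_eq_mul, mul_ite, mul_zero,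
        Finset.sum_ite_eq]
      split_ifs with hγ
      · by_cases h0 : w γ = 0
        · rw [h0, zero_mul, mul_zero]
        · exact (q6 _ _ (hS γ (Finsupp.mem_support_iff.2 h0))).eq.symm
      · have : w γ = 0 := by
          by_contra h
          exact hγ (Finset.mem_image_of_mem _ (Finsupp.mem_support_iff.2 h))
        rw [this, zero_mul]
    rw [e]
    exact U.sum_mem fun κ _ => U.smul_mem _ (hU κ w hw)
  · have hs : ∀ b, ∀ c ∈ S, layCo k n κ (Ψ (emb k n (κ + 1) (Finsupp.single b c))) =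
        Q κ 1 • sh k n l (Finsupp.single b c) := by
      intro b c hc
      have e1 : emb k n (κ + 1) (Finsupp.single b c) =
          c • Finsupp.single (snc b (κ + 1)) (1 : k) := by
        rw [Finsupp.smul_single, smul_eq_mul, mul_one]
        exact Finsupp.mapDomain_single
      have e2 : sh k n l (Finsupp.single b c) =
          c • Finsupp.single (b + Finsupp.single l 1) (1 : k) := by
        rw [Finsupp.smul_single, smul_eq_mul, mul_one]
        exact Finsupp.mapDomain_single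
      have e3 : ∀ s r, Qe l (snc b (κ + 1)) s r = snc (b + Finsupp.single l r) s := fun s r =>
        Qe_ext (by simp [Qe_last]) fun i => by simp [Qe_cast, Finsupp.single_apply]
      rw [e1, e2, map_smul, map_smul, Ψ1, map_sum, snc_last, Finset.sum_eq_single (κ, 1),
        map_smul, e3, layCo_single, if_pos rfl, smul_smul, smul_smul, (q7 κ c hc).eq]
      · intro p hp hne
        have := Finset.HasAntidiagonal.mem_antidiagonal.1 hp
        rw [map_smul, e3, layCo_single, if_neg, smul_zero]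
        intro e
        exact hne (Prod.ext e (by omega))
      · intro h'
        exact (h' (by simp)).elim
    rw [← Finsupp.sum_single v, Finsupp.sum]
    simp only [map_sum, Finset.smul_sum]
    exact Finset.sum_congr rfl fun b hb => hs b _ (hS b hb)

theorem shiftF (a : Fin (n + 1) → ℕ) (l : Fin n)
    (hl : a l.castSucc ≤ a (Fin.last n)) (hg : GoodF k (a (Fin.last n))) (S0 : Finset k)
    (W : ℕ → Submodule k (VV k (n + 1))) (h : HW W) (hu : UpW W) (hz : ZG W) (ho : OutW a W) :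
    ∃ W' : ℕ → Submodule k (VV k (n + 1)), HW W' ∧ UpW W' ∧ ZG W' ∧ OutW a W' ∧
      (∀ d, finrank k (W' d) = finrank k (W d)) ∧ (∀ p j, tW W p j ≤ tW W' p j) ∧
      (∀ d, layW W 0 d ≤ layW W' 0 d) ∧
      (∀ d κ, finrank k (W' d ⊓ Vge k n κ : Submodule k _) ≤
        finrank k (W d ⊓ Vge k n κ : Submodule k _)) ∧
      ∀ i d, i + 1 < a (Fin.last n) → ∀ v ∈ layW W (i + 1) d, (∀ γ ∈ v.support, v γ ∈ S0) →
        sh k n l v ∉ layW W i (d + 1) →
        finrank k (W' (d + (i + 1)) ⊓ Vge k n (i + 1) : Submodule k _) <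
          finrank k (W (d + (i + 1)) ⊓ Vge k n (i + 1) : Submodule k _) := by
  classical
  have hfg : ∀ d, ∃ T : Finset (VV k (n + 1)), Submodule.span k (T : Set _) = W d := fun d =>
    (Submodule.fg_iff_finiteDimensional _).2 (h.fin d)
  choose T hT using hfg
  obtain ⟨Ψ, M, τ, h1, h2, h3, h4, h5, h6, h7, h8, h9, h10, h11⟩ := qopF a l hl hg
    (S0 ∪ (Finset.range (∑ i, a i)).biUnion fun d => (T d).biUnion fun w => w.support.image w)
  have hinj : Function.Injective Ψ := by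
    rw [injective_iff_map_eq_zero]
    intro v hv
    exact tri_inj Ψ h7 h8 0 v (fun _ _ => Nat.zero_le _) fun γ _ => by rw [hv]; rfl
  have hτ : ∀ d, ∀ w ∈ W d, τ w ∈ W d := fun d w hw => by
    rcases lt_or_ge d (∑ i, a i) with hd | hd
    · have : Submodule.span k (T d : Set _) ≤ (W d).comap τ := Submodule.span_le.2 fun u hu =>
        h10 (W d) (hz d) u (hT d ▸ Submodule.subset_span hu) fun γ hγ =>
          Finset.mem_union_right _ (Finset.mem_biUnion.2 ⟨d, Finset.mem_range.2 hd,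
            Finset.mem_biUnion.2 ⟨u, hu, Finset.mem_image_of_mem _ hγ⟩⟩)
      exact this (hT d ▸ hw)
    · rw [stabG_full h ho hd] at hw ⊢
      exact fun β hβ => hw (h2 w hβ)
  obtain ⟨t1, t2⟩ := tt_twistG l Ψ M τ h1 h2 h3 h4 h5 h6 hinj W h hτ
  let W1 : ℕ → Submodule k (VV k (n + 1)) := fun d => Pd k (n + 1) d ⊓ (W d).comap Ψ
  have hW1 : HW W1 := fun d => inf_le_left
  have hu1 : UpW W1 := by
    intro d i w hw
    refine ⟨sh_Pd i d w hw.1, Submodule.mem_comap.mpr ?_⟩
    have hw2 : Ψ w ∈ W d := hw.2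
    induction i using Fin.lastCases with
    | last =>
      rw [h4, h1]
      exact add_mem (hu _ _ _ hw2) (hu _ _ _ (hτ _ _ hw2))
    | cast i =>
      rw [h5]
      exact hu _ _ _ hw2
  obtain ⟨W', a1, a2, a3, a4, a5, a6⟩ := inZ W1 hW1 hu1
  have hfc : ∀ d c, FiniteDimensional k (W1 d ⊓ Vge k n c : Submodule k _) := fun d c =>
    Submodule.finiteDimensional_of_le (inf_le_left.trans (hW1 d))
  have hft : ∀ d c, FiniteDimensional k (W d ⊓ Vge k n c : Submodule k _) := fun d c =>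
    Submodule.finiteDimensional_of_le (inf_le_left.trans (h d))
  have c1 : ∀ d c, finrank k (W' d ⊓ Vge k n c : Submodule k _) =
      finrank k ((W1 d ⊓ Vge k n c).map (sfF k n c ∘ₗ Ψ)) := by
    intro d c
    rw [a6, finrank_map_inj]
    intro w hw h0
    refine tri_inj Ψ h7 h8 c w (fun β hβ => hw.2 hβ) fun γ hγ => ?_
    have := DFunLike.congr_fun h0 γ
    rwa [LinearMap.comp_apply, sfF_apply, if_pos hγ] at this
  have c3 : ∀ d c, (W1 d ⊓ Vge k n c).map (sfF k n c ∘ₗ Ψ) ≤ W d ⊓ Vge k n c := by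
    rintro d c _ ⟨w, hw, rfl⟩
    refine ⟨shG_sf (hz d) c _ hw.1.2, fun β hβ => ?_⟩
    have h0 := Finsupp.mem_support_iff.mp hβ
    rw [LinearMap.comp_apply, sfF_apply] at h0
    split_ifs at h0 with hc
    · exact hc
    · exact absurd rfl h0
  have hV : Vge k n 0 = ⊤ := eq_top_iff.mpr fun v _ β _ => Nat.zero_le _
  refine ⟨W', a1, a2, a3, ?_, ?_, ?_, ?_, ?_, ?_⟩
  · intro β hβ
    have hP : Finsupp.single β (1 : k) ∈ Pd k (n + 1) β.degree :=
      Finsupp.single_mem_supported _ _ (by simp [mem_expo])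
    have hm : Ψ (Finsupp.single β 1) ∈ W β.degree := by
      rw [← Finsupp.sum_single (Ψ (Finsupp.single β 1))]
      refine Submodule.sum_mem _ fun γ hγ => ?_
      have e := mem_expo.mp (h6 _ _ hP hγ)
      have := (W β.degree).smul_mem (Ψ (Finsupp.single β 1) γ)
        (e ▸ ho γ (h9 β γ hβ (Finsupp.mem_support_iff.mp hγ)))
      rwa [Finsupp.smul_single, smul_eq_mul, mul_one] at this
    have e : zf k n (β (Fin.last n)) (Finsupp.single β (1 : k)) = Finsupp.single β 1 := by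
      ext δ
      rw [zf_apply]
      split_ifs with h
      · rfl
      · rw [Finsupp.single_eq_of_ne]
        rintro rfl
        exact h rfl
    have := a5 β.degree (β (Fin.last n)) _ ⟨hP, hm⟩ (e ▸ shG_vge _ _)
    rwa [e] at this
  · intro d
    have := a6 d 0
    rw [hV, inf_top_eq, inf_top_eq] at this
    exact this.trans (t1 d)
  · intro p j
    rw [← t2]
    exact a4 p j
  · rintro d _ ⟨w, hw, rfl⟩
    have hw0 := hz _ 0 w hw
    have e : Ψ (zf k n 0 w) = zf k n 0 w := by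
      ext γ
      exact shG_fix Ψ h7 h8 0 w γ (Nat.zero_le _)
    have hw1 : zf k n 0 w ∈ W1 (d + 0) := ⟨h _ hw0, Submodule.mem_comap.mpr (by rwa [e])⟩
    refine ⟨_, a5 _ 0 _ hw1 (shG_vge _ _), ?_⟩
    ext β
    simp only [layCo_apply, zf_apply, snc_last, if_true]
  · intro d c
    rw [c1]
    exact Submodule.finrank_mono (c3 d c)
  · rintro i d g2 _ ⟨w, hw, rfl⟩ g4 g3
    rw [c1]
    refine Submodule.finrank_lt_finrank_of_lt (lt_of_le_of_ne (c3 _ _) fun he => g3 ?_)
    have hs : zf k n (i + 1) w ∈ W (d + (i + 1)) ⊓ Vge k n (i + 1) :=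
      ⟨hz _ _ w hw, shG_vge _ _⟩
    rw [← he] at hs
    obtain ⟨u, hu', hwe⟩ := hs
    have hv : u - zf k n (i + 1) w = 0 := by
      refine tri_inj Ψ h7 h8 (i + 1) _
        (fun δ hδ => sub_mem hu'.2 (shG_vge (i + 1) w) hδ) fun δ hδ => ?_
      have := DFunLike.congr_fun hwe δ
      rw [LinearMap.comp_apply, sfF_apply, if_pos hδ] at this
      rw [map_sub, Finsupp.sub_apply, this, shG_fix Ψ h7 h8 _ w δ hδ, sub_self]
    rw [sub_eq_zero] at hv
    have hw2 : Ψ u ∈ W (d + (i + 1)) := hu'.1.2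
    obtain ⟨q, hq, hq2⟩ := h11 i g2
    have hm : q • sh k n l (layCo k n (i + 1) w) ∈ layW W i (d + 1) := by
      rw [← hq2 _ fun γ hγ => Finset.mem_union_left _ (g4 γ hγ), shG_emb, ← hv]
      refine ⟨Ψ u, ?_, rfl⟩
      rwa [show d + 1 + i = d + (i + 1) by omega]
    have := (layW W i (d + 1)).smul_mem q⁻¹ hm
    rwa [smul_smul, inv_mul_cancel₀ hq, one_smul] at this

theorem stabF_z (a : Fin (n + 1) → ℕ) (hl : ∀ l : Fin n, a l.castSucc ≤ a (Fin.last n))
    (hg : GoodF k (a (Fin.last n)))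
    (W : ℕ → Submodule k (VV k (n + 1))) (h : HW W) (hu : UpW W) (hz : ZG W) (ho : OutW a W) :
    ∃ W' : ℕ → Submodule k (VV k (n + 1)), HW W' ∧ UpW W' ∧ ZG W' ∧ OutW a W' ∧
      (∀ d, finrank k (W' d) = finrank k (W d)) ∧ (∀ p j, tW W p j ≤ tW W' p j) ∧
      (∀ d, layW W 0 d ≤ layW W' 0 d) ∧ StabW (a (Fin.last n)) W' := by
  classical
  obtain ⟨N, hN⟩ : ∃ N, N = ∑ i, a i := ⟨_, rfl⟩
  obtain ⟨μ, hμ⟩ : ∃ μ, μ = ∑ d ∈ Finset.range N, ∑ c ∈ Finset.range N,
      finrank k (W d ⊓ Vge k n c : Submodule k _) := ⟨_, rfl⟩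
  induction μ using Nat.strong_induction_on generalizing W with
  | _ μ ih =>
    by_cases hS : StabW (a (Fin.last n)) W
    · exact ⟨W, h, hu, hz, ho, fun _ => rfl, fun _ _ => le_rfl, fun _ => le_rfl, hS⟩
    · unfold StabW at hS
      push Not at hS
      obtain ⟨i, g1, d, l, v, g2, g3⟩ := hS
      obtain ⟨W', u1, u2, u3, u4, u5, u6, u7, u8, u9⟩ := shiftF a l (hl l) hg (v.support.image v) W h hu hz ho
      have s := u9 i d g1 v g2 (fun γ hγ => Finset.mem_image_of_mem _ hγ) g3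
      have d1 : d + (i + 1) < N := by
        by_contra h0
        rw [stabG_full h ho (hN ▸ not_lt.1 h0), stabG_full u1 u4 (hN ▸ not_lt.1 h0)] at s
        exact lt_irrefl _ s
      have hlt : ∑ d ∈ Finset.range N, ∑ c ∈ Finset.range N,
          finrank k (W' d ⊓ Vge k n c : Submodule k _) < μ := by
        rw [hμ]
        refine Finset.sum_lt_sum (fun d _ => Finset.sum_le_sum fun c _ => u8 d c)
          ⟨d + (i + 1), Finset.mem_range.mpr d1, ?_⟩
        exact Finset.sum_lt_sum (fun c _ => u8 _ c) ⟨i + 1, Finset.mem_range.mpr (by omega), s⟩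
      obtain ⟨W'', v1, v2, v3, v4, v5, v6, v7, v8⟩ := ih _ hlt W' u1 u2 u3 u4 rfl
      exact ⟨W'', v1, v2, v3, v4, fun d => (v5 d).trans (u5 d), fun p j => (u6 p j).trans (v6 p j),
        fun d => (u7 d).trans (v7 d), v8⟩

theorem stabF (a : Fin (n + 1) → ℕ) (hl : ∀ l : Fin n, a l.castSucc ≤ a (Fin.last n))
    (hg : GoodF k (a (Fin.last n)))
    (W : ℕ → Submodule k (VV k (n + 1))) (h : HW W) (hu : UpW W) (ho : OutW a W) :
    ∃ W' : ℕ → Submodule k (VV k (n + 1)), HW W' ∧ UpW W' ∧ ZG W' ∧ OutW a W' ∧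
      (∀ d, finrank k (W' d) = finrank k (W d)) ∧ (∀ p j, tW W p j ≤ tW W' p j) ∧
      (∀ d, layW W 0 d ≤ layW W' 0 d) ∧ StabW (a (Fin.last n)) W' := by
  obtain ⟨W1, u1, u2, u3, u4, u5, u6⟩ := inZ W h hu
  have top : Vge k n 0 = ⊤ := eq_top_iff.2 fun w _ β _ => Nat.zero_le _
  have o1 : OutW a W1 := fun β hβ => by
    have := u5 _ (β (Fin.last n)) _ (ho β hβ)
      (Finsupp.single_mem_supported k _ (le_refl (β (Fin.last n))))
    have e : zf k n (β (Fin.last n)) (Finsupp.single β 1) = Finsupp.single β 1 :=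
      Finsupp.filter_single_of_pos _ rfl
    rwa [e] at this
  have f1 : ∀ d, finrank k (W1 d) = finrank k (W d) := fun d => by
    have := u6 d 0
    rwa [top, inf_top_eq, inf_top_eq] at this
  have l1 : ∀ d, layW W 0 d ≤ layW W1 0 d := fun d => by
    rintro _ ⟨w, hw, rfl⟩
    refine ⟨zf k n 0 w, u5 _ 0 w hw (top ▸ Submodule.mem_top), ?_⟩
    ext β
    rw [layCo_apply, layCo_apply, zf_apply, if_pos (snc_last β 0)]
  obtain ⟨W', v1, v2, v3, v4, v5, v6, v7, v8⟩ := stabF_z a hl hg W1 u1 u2 u3 o1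
  exact ⟨W', v1, v2, v3, v4, fun d => (v5 d).trans (f1 d), fun p j => (u4 p j).trans (v6 p j),
    fun d => (l1 d).trans (v7 d), v8⟩

theorem stepF (K : Type*) [Field K] [Algebra K k] {a a' : Fin (n + 1) → ℕ} (ha : Monotone a)
    (h0 : ∀ i, 0 < a i) (B : (ℕ → Submodule k (VV k n)) → Prop)
    (hB : ∀ W W', B W → (∀ d, W d ≤ W' d) → B W')
    (ih : ∀ W, HW W → UpW W → B W → Cmp (fun l => a l.castSucc) W)
    (haa : a' (Fin.last n) = a (Fin.last n)) (hl : ∀ l : Fin n, a' l.castSucc ≤ a' (Fin.last n))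
    (hg : GoodF k (a' (Fin.last n))) (W : ℕ → Submodule k (VV k (n + 1))) (h : HW W) (hu : UpW W)
    (ho : OutW a' W) (hb : B (layW W 0)) : Cmp a W := by
  obtain ⟨W1, w1, w2, w3, w4, w5, w6, w7, w8⟩ := stabF a' hl hg W h hu ho
  rw [haa] at w8
  have hle : ∀ i d, layW W 0 d ≤ layW W1 i d := fun i d => by
    induction i with
    | zero => exact w7 d
    | succ i ih => exact ih.trans (layW_le w2 i d)
  choose V v1 v2 v3 v4 using fun i =>
    ih (layW W1 i) (layW_hw w1 i) (layW_up w2 i) (hB _ _ hb (hle i))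
  have vtop : ∀ i, a (Fin.last n) ≤ i → V i = Set.univ := fun i hi =>
    Set.eq_univ_of_forall fun β => lex_nest (isLex_univ _) (v1 i) trivial (by
      rw [v2, layW_top w1 w4 (haa ▸ hi), finrank_Pd])
  have vst : ∀ i, i + 1 < a (Fin.last n) → ∀ β ∈ V (i + 1), ∀ l,
      β + Finsupp.single l 1 ∈ V i := by
    intro i hi β hβ l
    obtain ⟨L', l1, l2, l3, -⟩ := ih
      (fun d => if d ≤ β.degree then layW W1 (i + 1) d else layW W1 i d)
      (fun d => by
        simp only
        split_ifs <;> exact layW_hw w1 _ _)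
      (fun d m w hw => by
        simp only at hw ⊢
        by_cases c1 : d ≤ β.degree
        · rw [if_pos c1] at hw
          split_ifs
          · exact layW_up w2 _ _ _ _ hw
          · exact w8 i hi d m w hw
        · rw [if_neg c1] at hw
          rw [if_neg (by omega)]
          exact layW_up w2 _ _ _ _ hw)
      (hB _ _ hb fun d => by split_ifs <;> exact hle _ _)
    beta_reduce at l2
    have h1 : β ∈ L' := lex_nest (v1 _) l1 hβ (by rw [v2, l2, if_pos le_rfl])
    refine lex_nest l1 (v1 _) (l3 β h1 l) ?_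
    rw [v2, l2, degree_add_single, if_neg (by omega)]
  have e : ∀ i, lay {β | ini β ∈ V (β (Fin.last n))} i = V i := fun i => by
    ext β; simp [lay]
  have hO : ∀ β, Out a β → β ∈ {β : Fin (n + 1) →₀ ℕ | ini β ∈ V (β (Fin.last n))} := by
    rintro β ⟨i, hi⟩
    induction i using Fin.lastCases with
    | last =>
      show ini β ∈ V _
      rw [vtop _ hi]
      trivial
    | cast l => exact (v1 _).1 _ ⟨l, hi⟩
  have hU : Up {β : Fin (n + 1) →₀ ℕ | ini β ∈ V (β (Fin.last n))} := by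
    intro β hβ i
    rw [← snc_ini β]
    induction i using Fin.lastCases with
    | last =>
      rw [snc_add_last]
      show ini _ ∈ V _
      rw [ini_snc, snc_last]
      refine lex_nest (v1 _) (v1 _) hβ ?_
      rw [v2, v2]
      have := (layW_hw w1 (β (Fin.last n) + 1)).fin (ini β).degree
      exact Submodule.finrank_mono (layW_le w2 _ _)
    | cast l =>
      rw [snc_add_cast]
      show ini _ ∈ V _
      rw [ini_snc, snc_last]
      exact v3 _ _ hβ l
  obtain ⟨L, l1, l2⟩ := exists_lex a _ hO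
  obtain ⟨m1, m2⟩ := MMk (k := k) K ha h0 hU hO l1 l2
  refine ⟨L, l1, fun d => ?_, m1, fun p j => (w6 p j).trans (le_trans ?_ (m2 p j))⟩
  · rw [l2, cnt_succ, ← w5, finrank_layW w1 w3]
    exact Finset.sum_congr rfl fun i _ => by rw [e, v2]
  · rw [tW_succ W1 w1 w3, tE_succ, e]
    refine Nat.add_le_add (v4 0 p j) (Finset.sum_le_sum fun i _ => ?_)
    rw [e, e]
    by_cases hi : i + 1 < a (Fin.last n)
    · rw [YY_eq _ _ (vst i hi), ← finrank_chW (layW_hw w1 _) (v2 _)]
      exact YG_le (layW_hw w1 _) _ _ _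
    · rw [vtop (i + 1) (by omega), layW_top w1 w4 (i := i + 1) (by omega)]
      exact YG_univ (layW_hw w1 _) _ _ (fun q => v4 i q _) p

theorem MF (K : Type*) [Field K] [Algebra K k] {c a0 a1 A b : ℕ} (gA : 3 ≤ c → GoodF k A)
    (gb : GoodF k b) (m : ℕ) : ∀ a : Fin (m + 2) → ℕ, Monotone a → (∀ i, 0 < a i) → a 0 = a0 →
      a 1 = a1 → (∀ i : Fin (m + 2), 2 ≤ (i : ℕ) → a i = if (i : ℕ) < c then A else b) →
      ∀ W : ℕ → Submodule k (VV k (m + 2)), HW W → UpW W → (∀ d, b ≤ d → Pd k (m + 2) d ≤ W d) →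
        Pow c A W → Two a0 a1 W → Cmp a W := by
  induction m with
  | zero =>
    intro a ha h0 e0 e1 _ W h hu _ _ h2
    subst e0 e1
    exact base2 (h0 0) (ha (Fin.zero_le _)) h hu h2
  | succ m ih =>
    intro a ha h0 e0 e1 e2 W h hu hb hp h2
    have el := e2 (Fin.last (m + 2)) (by simp)
    refine stepF (n := m + 2) K (a' := fun _ => a (Fin.last (m + 2))) ha h0
      (fun W' => (∀ d, b ≤ d → Pd k (m + 2) d ≤ W' d) ∧ Pow c A W' ∧ Two a0 a1 W')
      (fun W W' hW hle => ⟨fun d hd => (hW.1 d hd).trans (hle d), hW.2.1.mono hle, hW.2.2.mono hle⟩)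
      (fun W' h' hu' hW => ih _ (fun l l' hl => ha (Fin.castSucc_le_castSucc_iff.mpr hl))
        (fun _ => h0 _) e0 e1 (fun i hi => e2 i.castSucc hi) W' h' hu' hW.1 hW.2.1 hW.2.2)
      rfl (fun _ => le_rfl) ?_ W h hu ?_ ⟨fun d hd => ?_, hp.lay, h2.lay⟩
    · simp only [el]
      split_ifs with hc
      · exact gA (by simp at hc; omega)
      · exact gb
    · simp only [el]
      split_ifs with hc
      · exact hp.out hu (by simp at hc; omega)
      · rintro β ⟨i, hi⟩
        exact hb _ (hi.trans (Finsupp.le_degree i β))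
          (Finsupp.single_mem_supported _ _ (mem_expo.mpr rfl))
    · rw [Pd, Finsupp.supported_eq_span_single, Submodule.span_le]
      rintro _ ⟨β, hβ, rfl⟩
      refine ⟨Finsupp.single (snc β 0) 1, hb _ hd (Finsupp.single_mem_supported _ _ ?_), ?_⟩
      · rw [Finset.mem_coe, mem_expo, degree_snc, mem_expo.mp hβ, add_zero]
      · rw [layCo_single, if_pos rfl]

lemma goodF_of_C {a : ℕ} (h : GoodC k a) : GoodF k a := fun _ => by
  obtain ⟨t, Q, q1, q2, q3, q4, q5, q6, q7⟩ := h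
  exact ⟨t, Q, q1, q2, q3, q4, q5, fun s x _ => q6 s x, fun s x _ => q7 s x⟩

end Vale.Agent.P200F
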